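import Vale.Agent.P032.Words6.H229.Act

/-!
# P032: the table of all graphs
-/

noncomputable section

namespace Vale.Agent.P032.Words6.H926

open Vale.Agent.P032.Words6.H358

/-- the tables of all graphs -/
theorem tab35 : ∀ L ∈ H122.Lets35, H358.TreeOK L :=
  H122.map_LC ▸ H122.all35_of tree22 tree28 tree30 tree32 tree33 tree34 H229.tree35

end Vale.Agent.P032.Words6.H926
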